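import Vale.Agent.P280.H939.R3i
import Vale.Agent.P280.H644.ThmFin

/-!
# P280: (s3) in the form `H644.S3`, and Theorem I for all rings
-/

namespace Vale.Agent.P280.H939

open Vale.Agent.P280.T

theorem s3 : Vale.Agent.P280.H644.S3 := by
  intro R _ _ 𝒜 _ hX p μ a hp w v hw hv hvw
  exact source_s3 hX hp hw hv hvw

theorem theoremI_all : Vale.Agent.P280.H587.TheoremI := Vale.Agent.P280.H644.theoremI_of_S3 s3

end Vale.Agent.P280.H939
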