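import Vale.Agent.P280.H939.D1

/-!
# P280 (Theorem III), T2: the chart at an isolated source in terms of elements of degree one
-/

namespace Vale.Agent.P280.H939

open DirectSum Vale.Agent.P280.T Vale.Agent.P280.H127

variable {M : Type} [AddCommGroup M] [DecidableEq M]
variable {R : Type} [CommRing R] [Algebra ℂ R] {𝒜 : ℕ × M → Submodule ℂ R} [GradedAlgebra 𝒜]
variable {L : M →+ ℤ} {μ : M} {p : R →ₐ[ℂ] ℂ} {f : R}

section
variable {n₀ : ℕ} {u₀ : Fin n₀ → R} {χ₀ : Fin n₀ → M}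
variable {K : Type} [Field K] [Algebra R K] [Algebra ℂ K] [IsScalarTower ℂ R K]

/-- the dehomogenisations lie in each subalgebra containing those of local generators -/
theorem mem_of_gens (C : CData 𝒜 L μ p f u₀ χ₀) (hF : algebraMap R K f ≠ 0) {n : ℕ}
    {u : Fin n → R} {χ : Fin n → M} (G : Gens (coarse 𝒜 (rw' μ)) p u χ) (A : Subalgebra ℂ K)
    (hA : ∀ i, 0 < L (χ i) → deh 𝒜 hF (u i) ∈ A) {ψ : M} {x : R}
    (hx : x ∈ coarse 𝒜 (rw' μ) ψ) : deh 𝒜 hF x ∈ A := by
  have := C.dom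
  have := C.noe
  by_cases hk : L ψ < 0
  · rw [C.eq_zero hk hx, map_zero]
    exact A.zero_mem
  push Not at hk
  obtain ⟨N, hN⟩ := Int.eq_ofNat_of_zero_le hk
  clear hk
  induction N using Nat.strong_induction_on generalizing ψ x with
  | _ N ih =>
  rcases Nat.eq_zero_or_pos N with rfl | hN0
  · rw [C.deh_zero hF hN hx]
    exact A.algebraMap_mem _
  have ih' : ∀ ψ' : M, L ψ' < N → ∀ y ∈ coarse 𝒜 (rw' μ) ψ', deh 𝒜 hF y ∈ A := by
    intro ψ' hψ' y hy
    by_cases hk0 : L ψ' < 0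
    · rw [C.eq_zero hk0 hy, map_zero]
      exact A.zero_mem
    · obtain ⟨J, hJ⟩ := Int.eq_ofNat_of_zero_le (not_lt.1 hk0)
      exact ih J (by omega) hy hJ
  have hψ : ψ ≠ 0 := by
    rintro rfl
    rw [map_zero] at hN
    omega
  obtain ⟨s, hs0, hs1, hs⟩ := G.gen
  have hxm : x ∈ mx p := mem_mx.2 ((fix_of_isFixed C.fix) ψ hψ x hx)
  obtain ⟨c, hc⟩ := Ideal.mem_span_range_iff_exists_fun.1 (hs x hxm)
  have hsx : s * x ∈ coarse 𝒜 (rw' μ) ψ := by
    have := SetLike.mul_mem_graded hs0 hx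
    rwa [zero_add] at this
  have h1 : s * x = ∑ i, cp (coarse 𝒜 (rw' μ)) (ψ - χ i) (c i) * u i := by
    conv_lhs => rw [← cp_of_mem (coarse 𝒜 (rw' μ)) hsx, ← hc, cp_sum]
    exact Finset.sum_congr rfl fun i _ => cp_mul_right (coarse 𝒜 (rw' μ)) (G.hom i) _ _
  have h2 : deh 𝒜 hF x = ∑ i, deh 𝒜 hF (cp (coarse 𝒜 (rw' μ)) (ψ - χ i) (c i) * u i) := by
    rw [← map_sum, ← h1, map_mul, C.deh_zero hF (map_zero L) hs0, hs1, map_one, one_mul]
  rw [h2]
  refine A.sum_mem fun i _ => ?_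
  rw [map_mul]
  by_cases hi : 0 < L (χ i)
  · refine A.mul_mem (ih' (ψ - χ i) (by rw [map_sub]; omega) _ (cp_mem _ _ _)) (hA i hi)
  · have h3 : deh 𝒜 hF (u i) = 0 := by
      rcases (not_lt.1 hi).lt_or_eq with h | h
      · rw [C.eq_zero h (G.hom i), map_zero]
      · rw [C.deh_zero hF h (G.hom i), G.zero i, map_zero]
    rw [h3, mul_zero]
    exact A.zero_mem

/-- the elements which become sections of `W` after multiplication by a power of `f` -/
def AW (K : Type) [Field K] [Algebra R K] [Algebra ℂ K] [IsScalarTower ℂ R K] (f : R)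
    (W : Submodule ℂ R) (hf : f ∈ W) : Subalgebra ℂ K where
  carrier := {z | ∃ N : ℕ, ∃ r ∈ W ^ N, algebraMap R K f ^ N * z = algebraMap R K r}
  mul_mem' := by
    rintro z z' ⟨N, r, hr, h⟩ ⟨N', r', hr', h'⟩
    refine ⟨N + N', r * r', ?_, ?_⟩
    · rw [pow_add]
      exact Submodule.mul_mem_mul hr hr'
    · rw [map_mul, ← h, ← h', pow_add]
      ring
  add_mem' := by
    rintro z z' ⟨N, r, hr, h⟩ ⟨N', r', hr', h'⟩
    refine ⟨N + N', f ^ N' * r + f ^ N * r', Submodule.add_mem _ ?_ ?_, ?_⟩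
    · rw [add_comm N N', pow_add]
      exact Submodule.mul_mem_mul (Submodule.pow_mem_pow _ hf _) hr
    · rw [pow_add]
      exact Submodule.mul_mem_mul (Submodule.pow_mem_pow _ hf _) hr'
    · rw [map_add, map_mul, map_mul, map_pow, map_pow, ← h, ← h', pow_add]
      ring
  algebraMap_mem' := by
    intro c
    refine ⟨0, algebraMap ℂ R c, ?_, ?_⟩
    · rw [pow_zero]
      exact Submodule.algebraMap_mem c
    · rw [pow_zero, one_mul, ← IsScalarTower.algebraMap_apply]

end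

/-- elements of the maximal ideal killed by the dual vectors lie in its square -/
theorem mem_sq {n : ℕ} {u : Fin n → R} {v : Fin n → R →ₗ[ℂ] ℂ} (hu : ∀ i, p (u i) = 0)
    (hgen : ∃ s : R, p s = 1 ∧ ∀ x ∈ mx p, s * x ∈ Ideal.span (Set.range u))
    (hv : ∀ i, IsTangent p (v i)) (hvu : ∀ i j, v i (u j) = if i = j then 1 else 0) {y : R}
    (hy : y ∈ mx p) (h0 : ∀ i, v i y = 0) : y ∈ mx p * mx p := by
  obtain ⟨s, hs1, hs⟩ := hgen
  obtain ⟨c, hc⟩ := Ideal.mem_span_range_iff_exists_fun.1 (hs y hy)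
  have hcm : ∀ k, c k ∈ mx p := by
    intro k
    have h1 := congrArg (v k) hc
    rw [map_sum, hv k s y, h0, mem_mx.1 hy, mul_zero, zero_mul, add_zero,
      Finset.sum_eq_single k] at h1
    · rw [hv k, hvu, if_pos rfl, hu, mul_one, zero_mul, add_zero] at h1
      exact mem_mx.2 h1
    · intro i _ hi
      rw [hv k, hvu, if_neg (Ne.symm hi), hu, mul_zero, zero_mul, add_zero]
    · intro h
      exact absurd (Finset.mem_univ _) h
  have e : y = s * y + (1 - s) * y := by ring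
  rw [e, ← hc]
  refine Ideal.add_mem _ (Ideal.sum_mem _ fun i _ => Ideal.mul_mem_mul (hcm i) (mem_mx.2 (hu i)))
    (Ideal.mul_mem_mul ?_ hy)
  exact mem_mx.2 (by rw [map_sub, map_one, hs1, sub_self])

/-- the new parameters -/
noncomputable def nu (p : R →ₐ[ℂ] ℂ) (f : R) {k : ℕ} (ℓ : Fin k → R) : Fin (k + 1) → R :=
  Fin.cons (f - 1) (fun j => ℓ j - algebraMap ℂ R (p (ℓ j)))

/-- their weights -/
def nw (μ : M) {k : ℕ} (m : Fin k → M) : Fin (k + 1) → M := Fin.cons 0 (fun j => m j - μ)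

theorem gens_new (C : ∃ (n₀ : ℕ) (u₀ : Fin n₀ → R) (χ₀ : Fin n₀ → M), CData 𝒜 L μ p f u₀ χ₀)
    (hX : IsTorusManifold 𝒜) {k : ℕ} {ℓ : Fin k → R} {m : Fin k → M} (hℓ : ∀ j, ℓ j ∈ 𝒜 (1, m j))
    (hsep : ∀ v : R →ₗ[ℂ] ℂ, IsTangent p v → v f = 0 → (∀ j, v (ℓ j) = 0) → v = 0) :
    Gens (coarse 𝒜 (rw' μ)) p (nu p f ℓ) (nw μ m) := by
  obtain ⟨n₀, u₀, χ₀, C⟩ := C
  have pf : p f = 1 := C.src.pf
  have hzero : ∀ i, p (nu p f ℓ i) = 0 := by
    intro i
    refine Fin.cases ?_ (fun j => ?_) i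
    · change p (f - 1) = 0
      rw [map_sub, map_one, pf, sub_self]
    · change p (ℓ j - algebraMap ℂ R (p (ℓ j))) = 0
      rw [map_sub, AlgHom.commutes]
      exact sub_self _
  have hone : (1 : R) ∈ coarse 𝒜 (rw' μ) 0 := SetLike.one_mem_graded _
  have hhom : ∀ i, nu p f ℓ i ∈ coarse 𝒜 (rw' μ) (nw μ m i) := by
    intro i
    refine Fin.cases ?_ (fun j => ?_) i
    · change f - 1 ∈ coarse 𝒜 (rw' μ) 0
      refine Submodule.sub_mem _ (mem_coarse C.hf ?_) hone
      rw [rw'_apply, one_smul, sub_self]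
    · change ℓ j - algebraMap ℂ R (p (ℓ j)) ∈ coarse 𝒜 (rw' μ) (m j - μ)
      have h1 : ℓ j ∈ coarse 𝒜 (rw' μ) (m j - μ) := by
        refine mem_coarse (hℓ j) ?_
        rw [rw'_apply, one_smul]
      by_cases hp : p (ℓ j) = 0
      · rwa [hp, map_zero, sub_zero]
      · have h2 := C.fix 1 _ _ (hℓ j) hp
        rw [one_smul] at h2
        rw [h2, sub_self] at h1 ⊢
        refine Submodule.sub_mem _ h1 ?_
        rw [Algebra.algebraMap_eq_smul_one]
        exact Submodule.smul_mem _ _ hone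
  have := noeth hX
  obtain ⟨v, hvT, hvu, -, -⟩ := C.gens.exists_dual (fix_of_isFixed C.fix) C.ht.le
  have hu0 := C.gens.zero
  have hgen : ∃ s : R, p s = 1 ∧ ∀ x ∈ mx p, s * x ∈ Ideal.span (Set.range u₀) := by
    obtain ⟨s, -, h1, h2⟩ := C.gens.gen
    exact ⟨s, h1, h2⟩
  -- linear algebra
  have hsurj := surj_of_separating (P := Fin n₀ → ℂ) (V := Fin (k + 1) → ℂ)
    (Fintype.linearCombination ℂ (fun j : Fin (k + 1) =>
      ∑ i, v i (nu p f ℓ j) • (LinearMap.proj i : (Fin n₀ → ℂ) →ₗ[ℂ] ℂ))) (by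
    intro t ht
    have h1 : ∀ j, ∑ i, t i * v i (nu p f ℓ j) = 0 := by
      intro j
      have h2 := ht (Pi.single j 1)
      rw [Fintype.linearCombination_apply_single, one_smul, LinearMap.sum_apply] at h2
      rw [← h2]
      refine Finset.sum_congr rfl fun i _ => ?_
      change _ = v i (nu p f ℓ j) * t i
      rw [mul_comm]
    have hval : ∀ x, (∑ i, t i • v i) x = ∑ i, t i * v i x := by
      intro x
      rw [LinearMap.sum_apply]
      rfl
    have h3 := hsep (∑ i, t i • v i) (by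
      intro x y
      rw [hval, hval, hval, Finset.mul_sum, Finset.mul_sum, ← Finset.sum_add_distrib]
      refine Finset.sum_congr rfl fun i _ => ?_
      rw [hvT i x y]
      ring) (by
      rw [hval, ← h1 0]
      refine Finset.sum_congr rfl fun i _ => ?_
      change _ = t i * v i (f - 1)
      rw [map_sub, (hvT i).one, sub_zero]) (by
      intro j
      rw [hval, ← h1 j.succ]
      refine Finset.sum_congr rfl fun i _ => ?_
      change _ = t i * v i (ℓ j - algebraMap ℂ R (p (ℓ j)))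
      rw [map_sub, Algebra.algebraMap_eq_smul_one, map_smul, (hvT i).one, smul_zero, sub_zero])
    funext i
    have h4 : (∑ i, t i • v i) (u₀ i) = 0 := by rw [h3]; rfl
    rw [hval, Finset.sum_eq_single i] at h4
    · rwa [hvu, if_pos rfl, mul_one] at h4
    · intro j _ hj
      rw [hvu, if_neg hj, mul_zero]
    · intro h
      exact absurd (Finset.mem_univ _) h)
  set I : Ideal R := Ideal.span (Set.range (nu p f ℓ)) with hI
  have hui : ∀ i, u₀ i ∈ I ⊔ mx p * mx p := by
    intro i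
    obtain ⟨c, hc⟩ := hsurj (LinearMap.proj i)
    have hci : ∀ r, v r (∑ j, c j • nu p f ℓ j) = v r (u₀ i) := by
      intro r
      have h1 := LinearMap.congr_fun hc (Pi.single r 1)
      rw [Fintype.linearCombination_apply, LinearMap.sum_apply] at h1
      have h2 : ∀ j, (c j • ∑ i, v i (nu p f ℓ j) • (LinearMap.proj i : (Fin n₀ → ℂ) →ₗ[ℂ] ℂ))
          (Pi.single r 1) = c j * v r (nu p f ℓ j) := by
        intro j
        rw [LinearMap.smul_apply, LinearMap.sum_apply, smul_eq_mul, Finset.sum_eq_single r]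
        · change c j * (v r (nu p f ℓ j) * (Pi.single r (1 : ℂ) : Fin n₀ → ℂ) r) = _
          rw [Pi.single_eq_same, mul_one]
        · intro i' _ hi'
          change v i' (nu p f ℓ j) * (Pi.single r (1 : ℂ) : Fin n₀ → ℂ) i' = 0
          rw [Pi.single_eq_of_ne hi', mul_zero]
        · intro h
          exact absurd (Finset.mem_univ _) h
      rw [Finset.sum_congr rfl fun j _ => h2 j] at h1
      rw [map_sum, hvu]
      have h3 : (LinearMap.proj i : (Fin n₀ → ℂ) →ₗ[ℂ] ℂ) (Pi.single r 1) =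
          if r = i then 1 else 0 := by
        change (Pi.single r (1 : ℂ) : Fin n₀ → ℂ) i = _
        rw [Pi.single_apply]
        by_cases h : r = i
        · rw [if_pos h, if_pos h.symm]
        · rw [if_neg h, if_neg (Ne.symm h)]
      rw [← h3, ← h1]
      refine Finset.sum_congr rfl fun j _ => ?_
      rw [map_smul, smul_eq_mul]
    have hmem : u₀ i - ∑ j, c j • nu p f ℓ j ∈ mx p * mx p := by
      refine mem_sq hu0 hgen hvT hvu (mem_mx.2 ?_) fun r => ?_
      · rw [map_sub, hu0, map_sum, zero_sub, neg_eq_zero]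
        refine Finset.sum_eq_zero fun j _ => ?_
        rw [map_smul, hzero, smul_zero]
      · rw [map_sub, hci, sub_self]
    have e : u₀ i = ∑ j, c j • nu p f ℓ j + (u₀ i - ∑ j, c j • nu p f ℓ j) := by ring
    rw [e]
    refine Submodule.add_mem_sup ?_ hmem
    refine Ideal.sum_mem _ fun j _ => ?_
    rw [Algebra.smul_def]
    exact Ideal.mul_mem_left _ _ (Ideal.subset_span ⟨j, rfl⟩)
  have hle : mx p ≤ I ⊔ mx p * mx p := by
    intro x hx
    obtain ⟨s, hs1, hs⟩ := hgen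
    have e : x = s * x + (1 - s) * x := by ring
    rw [e]
    refine Ideal.add_mem _ ?_ (Ideal.mem_sup_right (Ideal.mul_mem_mul (mem_mx.2 ?_) hx))
    · have h1 : Ideal.span (Set.range u₀) ≤ I ⊔ mx p * mx p := by
        rw [Ideal.span_le]
        rintro _ ⟨i, rfl⟩
        exact hui i
      exact h1 (hs x hx)
    · rw [map_sub, map_one, hs1, sub_self]
  have hfg : (mx p : Submodule R R).FG := IsNoetherian.noetherian _
  obtain ⟨r, hr, hrI⟩ := Submodule.exists_sub_one_mem_and_smul_le_of_fg_of_le_sup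
    (I := mx p) (N := I) (N' := mx p) (P := mx p) hfg le_rfl hle
  have hpr : p r = 1 := by
    have h1 := mem_mx.1 hr
    rwa [map_sub, map_one, sub_eq_zero] at h1
  refine Gens.of_den (fix_of_isFixed C.fix) hhom hzero (s := r) (by rw [hpr]; exact one_ne_zero) ?_
  intro x hx
  exact hrI (Submodule.smul_mem_pointwise_smul x r (mx p) hx)

/-- **(T2)** -/
theorem chart_span (hX : IsTorusManifold 𝒜) {a : ℤ} (hs : IsSource 𝒜 L p μ a)
    (hf : f ∈ 𝒜 (1, μ)) (pf : p f = 1) {k : ℕ} {ℓ : Fin k → R} {m : Fin k → M}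
    (hℓ : ∀ j, ℓ j ∈ 𝒜 (1, m j))
    (hsep : ∀ v : R →ₗ[ℂ] ℂ, IsTangent p v → v f = 0 → (∀ j, v (ℓ j) = 0) → v = 0) {g : R}
    (hg : g ∈ ⨆ m', 𝒜 (1, m')) :
    ∃ N : ℕ, f ^ N * g ∈ (Submodule.span ℂ (insert f (Set.range ℓ))) ^ (N + 1) := by
  have hdom := hX.domain
  obtain ⟨f', n₀, u₀, χ₀, C⟩ := exists_cdata hX hs
  have hff : f = f' := by
    have h1 := C.eq_smul (d := 1) (m := μ) (by rw [one_smul, sub_self, map_zero]) hf
    rwa [pf, one_smul, pow_one] at h1
  subst hff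
  have G := gens_new ⟨n₀, u₀, χ₀, C⟩ hX hℓ hsep
  let K := FractionRing R
  have hK : Function.Injective (algebraMap R K) := IsFractionRing.injective R K
  have hF : algebraMap R K f ≠ 0 := fun h => C.f_ne (hK (by rw [h, map_zero]))
  set W := Submodule.span ℂ (insert f (Set.range ℓ)) with hW
  have hfW : f ∈ W := Submodule.subset_span (Set.mem_insert _ _)
  have hmem : ∀ m', ∀ g ∈ 𝒜 (1, m'), ∃ N : ℕ, f ^ N * g ∈ W ^ (N + 1) := by
    intro m' g hg
    have h1 := mem_of_gens C hF G (AW K f W hfW) (by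
      intro i
      refine Fin.cases ?_ (fun j => ?_) i
      · intro h
        change 0 < L 0 at h
        rw [map_zero] at h
        exact absurd h (lt_irrefl _)
      · intro h
        change 0 < L (m j - μ) at h
        have hpj : p (ℓ j) = 0 := by
          by_contra hne
          have h2 := C.fix 1 _ _ (hℓ j) hne
          rw [one_smul] at h2
          rw [h2, sub_self, map_zero] at h
          exact absurd h (lt_irrefl _)
        change deh 𝒜 hF (ℓ j - algebraMap ℂ R (p (ℓ j))) ∈ _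
        rw [hpj, map_zero, sub_zero, deh_of_mem hF (hℓ j), pow_one]
        refine ⟨1, ℓ j, ?_, ?_⟩
        · rw [pow_one]
          exact Submodule.subset_span (Set.mem_insert_of_mem _ ⟨j, rfl⟩)
        · rw [pow_one, mul_comm, mul_assoc, inv_mul_cancel₀ hF, mul_one])
      (mem_coarse hg rfl)
    obtain ⟨N, r, hr, h2⟩ := h1
    rw [deh_of_mem hF hg, pow_one] at h2
    refine ⟨N, ?_⟩
    have h3 : f ^ N * g = r * f := by
      apply hK
      rw [map_mul, map_mul, map_pow, ← h2]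
      rw [mul_assoc, mul_assoc, inv_mul_cancel₀ hF, mul_one]
    rw [h3, pow_succ]
    exact Submodule.mul_mem_mul hr hfW
  have hup : ∀ (N N' : ℕ) (g : R), f ^ N * g ∈ W ^ (N + 1) → f ^ (N' + N) * g ∈
      W ^ (N' + N + 1) := by
    intro N N' g h
    have e : f ^ (N' + N) * g = f ^ N' * (f ^ N * g) := by rw [pow_add, mul_assoc]
    rw [e, add_assoc, pow_add]
    exact Submodule.mul_mem_mul (Submodule.pow_mem_pow _ hfW _) h
  refine Submodule.iSup_induction (fun m' => 𝒜 (1, m'))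
    (motive := fun g => ∃ N : ℕ, f ^ N * g ∈ W ^ (N + 1)) hg hmem ⟨0, ?_⟩ ?_
  · rw [mul_zero]
    exact Submodule.zero_mem _
  · rintro x y ⟨N, hN⟩ ⟨N', hN'⟩
    refine ⟨N' + N, ?_⟩
    rw [mul_add]
    refine Submodule.add_mem _ (hup N N' x hN) ?_
    have h := hup N' N y hN'
    rwa [add_comm N N'] at h

end Vale.Agent.P280.H939
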