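import Vale.Agent.P280.H939.D2

/-!
# P280 (X3), row D, part 3: the derivatives of the equation are the elements of degree one
-/

namespace Vale.Agent.P280.H939

open DirectSum Vale.Agent.P280.T Vale.Agent.P280.H127 Vale.Agent.P280.H812

variable {R : Type} [CommRing R] [Algebra ℂ R] {𝒜 : ℕ × ℤ → Submodule ℂ R} [GradedAlgebra 𝒜]
variable {p : R →ₐ[ℂ] ℂ} {μ a : ℤ} {f : R}
variable {ι : Type} [Fintype ι] [DecidableEq ι] {D : ι → Derivation ℂ R R} {ℓ : ι → R}
variable {σ : ℤ} {q : R →ₐ[ℂ] ℂ} {s : ℕ} {Y : R →ₐ[ℂ] MvPolynomial (Fin s) ℂ}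

/-- a tangent vector at a point of the image of `Y` which vanishes on the top slope and on the
lifts of the coordinates vanishes -/
theorem BB_tangent (hT : IsTop 𝒜 σ) (hB : BB 𝒜 a σ q Y) {κ : Fin s → ℂ} {τ : R →ₗ[ℂ] ℂ}
    (hτ : ∀ x y, τ (x * y) = MvPolynomial.aeval κ (Y x) * τ y + MvPolynomial.aeval κ (Y y) * τ x)
    (htop : ∀ (d : ℕ), ∀ h ∈ 𝒜 (d, d • σ), τ h = 0) {y : Fin s → R}
    (hy : ∀ j, Y (y j) = MvPolynomial.X j) (h0 : ∀ j, τ (y j) = 0) (x : R) : τ x = 0 := by
  have hτ1 : τ 1 = 0 := by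
    have := hτ 1 1
    have e1 : MvPolynomial.aeval κ (Y 1) = (1 : ℂ) := by rw [map_one Y, map_one]
    rw [mul_one, e1, one_mul] at this
    exact left_eq_add.mp this
  have hτc : ∀ c : ℂ, τ (algebraMap ℂ R c) = 0 := fun c => by
    rw [Algebra.algebraMap_eq_smul_one, map_smul, hτ1, smul_zero]
  -- the kernel
  have hker : ∀ x, Y x = 0 → τ x = 0 := by
    intro x hx
    refine (Submodule.span_induction (p := fun x _ => MvPolynomial.aeval κ (Y x) = 0 ∧ τ x = 0)
      ?_ ?_ ?_ ?_ (hB.ker x hx)).2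
    · rintro z (⟨d, m, hm, hz⟩ | ⟨d, h', hh', rfl⟩)
      · have h1 : z = 0 := by
          by_contra hne
          exact absurd (hT d m z hz hne) (not_le.2 hm)
        rw [h1]
        exact ⟨by rw [map_zero, map_zero], map_zero _⟩
      · refine ⟨?_, ?_⟩
        · rw [map_sub, map_sub, hB.zero d h' hh', AlgHom.commutes, MvPolynomial.aeval_C,
            AlgHom.commutes, sub_self]
        · rw [map_sub, htop d h' hh', hτc, sub_self]
    · exact ⟨by rw [map_zero, map_zero], map_zero _⟩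
    · rintro z w _ _ ⟨h1, h2⟩ ⟨h3, h4⟩
      exact ⟨by rw [map_add, map_add, h1, h3, add_zero], by rw [map_add, h2, h4, add_zero]⟩
    · rintro r z _ ⟨h1, h2⟩
      refine ⟨by rw [smul_eq_mul, map_mul, map_mul, h1, mul_zero], ?_⟩
      rw [smul_eq_mul, hτ, h1, h2, mul_zero, zero_mul, add_zero]
  -- polynomials in the lifts
  have hpoly : ∀ P : MvPolynomial (Fin s) ℂ, τ (MvPolynomial.aeval y P) = 0 := by
    intro P
    induction P using MvPolynomial.induction_on with
    | C c => rw [MvPolynomial.aeval_C, hτc]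
    | add P Q h1 h2 => rw [map_add, map_add, h1, h2, add_zero]
    | mul_X P i h1 => rw [map_mul, MvPolynomial.aeval_X, hτ, h1, h0, mul_zero, mul_zero, add_zero]
  have hYx : Y (MvPolynomial.aeval y (Y x)) = Y x := by
    have h1 : (Y.comp (MvPolynomial.aeval y)) = AlgHom.id ℂ (MvPolynomial (Fin s) ℂ) := by
      apply MvPolynomial.algHom_ext
      intro j
      change Y (MvPolynomial.aeval y (MvPolynomial.X j)) = _
      rw [MvPolynomial.aeval_X, hy]
      rfl
    exact congrArg (fun F : MvPolynomial (Fin s) ℂ →ₐ[ℂ] MvPolynomial (Fin s) ℂ => F (Y x)) h1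
  have h2 := hker (x - MvPolynomial.aeval y (Y x)) (by rw [map_sub, hYx, sub_self])
  rwa [map_sub, hpoly, sub_zero] at h2

theorem rowD : RowD := by
  intro R _ _ 𝒜 _ p μ a f hH σ hT q hq hq' s Y hB hY hder
  obtain ⟨ι, _, _, D, ℓ, DDat⟩ := exists_DD hH
  have ha := hH.pos
  -- a section of top slope
  obtain ⟨r1, hr1, hqr1⟩ := exists_deg_one_ne hH.man.gen hq hq'
  obtain ⟨r0, hr0, hqr0⟩ : ∃ r0 ∈ 𝒜 (1, 1 • σ), q r0 = 1 := by
    refine ⟨(q r1)⁻¹ • r1, ?_, ?_⟩
    · rw [one_smul]
      exact Submodule.smul_mem _ _ hr1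
    · rw [map_smul, smul_eq_mul, inv_mul_cancel₀ hqr1]
  have key := fun (κ : Fin s → ℂ) (d : ℕ) (h : R) (hh : h ∈ 𝒜 (d, d • σ)) =>
    key_identity DDat ha hH.hf hB hY κ hh
  have key0 : ∀ κ, ∑ i, MvPolynomial.aeval κ (Y (D i r0)) • Y (ℓ i) = der κ (Y f) := by
    intro κ
    rw [key κ 1 r0 hr0, hqr0, Nat.cast_one, one_mul, one_smul]
  refine ⟨fun κ => ⟨∑ i, MvPolynomial.aeval κ (Y (D i r0)) • ℓ i, ?_, ?_⟩, ?_⟩
  · exact Submodule.sum_mem _ fun i _ => Submodule.smul_mem _ _ (DDat.hl i)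
  · rw [map_sum, ← key0]
    refine Finset.sum_congr rfl fun i _ => ?_
    rw [map_smul]
  intro x hx
  obtain ⟨t', ht'⟩ := DDat.one x hx
  -- the space `P`
  let P : Submodule ℂ (ι → ℂ) :=
    { carrier := {t | ∀ (κ : Fin s → ℂ) (d : ℕ), ∀ h ∈ 𝒜 (d, d • σ),
        ∑ i, t i * MvPolynomial.aeval κ (Y (D i h)) =
          (d : ℂ) * q h * ∑ i, t i * MvPolynomial.aeval κ (Y (D i r0))}
      zero_mem' := by
        intro κ d h _
        simp
      add_mem' := by
        intro t t2 h1 h2 κ d h hh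
        have e1 := h1 κ d h hh
        have e2 := h2 κ d h hh
        simp only [Pi.add_apply, add_mul, Finset.sum_add_distrib]
        rw [e1, e2, mul_add]
      smul_mem' := by
        intro c t h1 κ d h hh
        have e1 := h1 κ d h hh
        simp only [Pi.smul_apply, smul_eq_mul, mul_assoc, ← Finset.mul_sum]
        rw [e1]
        ring }
  have hPmem : ∀ κ' : Fin s → ℂ, (fun i => MvPolynomial.aeval κ' (Y (ℓ i))) ∈ P := by
    intro κ' κ d h hh
    have e1 := congrArg (MvPolynomial.aeval κ') (key κ d h hh)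
    have e2 := congrArg (MvPolynomial.aeval κ') (key0 κ)
    rw [map_sum, map_smul] at e1
    rw [map_sum] at e2
    simp only [map_smul, smul_eq_mul] at e1 e2
    have e3 : ∀ h, ∑ i, MvPolynomial.aeval κ' (Y (ℓ i)) * MvPolynomial.aeval κ (Y (D i h)) =
        ∑ i, MvPolynomial.aeval κ (Y (D i h)) * MvPolynomial.aeval κ' (Y (ℓ i)) := fun h =>
      Finset.sum_congr rfl fun i _ => mul_comm _ _
    change ∑ i, MvPolynomial.aeval κ' (Y (ℓ i)) * MvPolynomial.aeval κ (Y (D i h)) =
      (d : ℂ) * q h * ∑ i, MvPolynomial.aeval κ' (Y (ℓ i)) * MvPolynomial.aeval κ (Y (D i r0))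
    rw [e3, e3, e1, e2]
  -- a point where the equation does not vanish
  obtain ⟨κ1, hκ1⟩ : ∃ κ1 : Fin s → ℂ, MvPolynomial.aeval κ1 (Y f) ≠ 0 := by
    by_contra hcon
    push Not at hcon
    exact hY (poly_ext fun κ => by rw [hcon, map_zero])
  choose y hy using fun j : Fin s => hB.surj (MvPolynomial.X j)
  obtain ⟨E, hE⟩ := H587.exists_euler 𝒜
  have zf : ∀ (d : ℕ) (m : ℤ), ∀ h ∈ 𝒜 (d, m), MvPolynomial.aeval κ1 (Y (E h)) =
      (d : ℂ) * MvPolynomial.aeval κ1 (Y h) := by
    intro d m h hh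
    rw [hE d m h hh, map_smul, map_smul, smul_eq_mul]
  -- dimension of `P`
  have hdim : Module.finrank ℂ P ≤ s := by
    have hinj : Function.Injective ((Fintype.linearCombination ℂ (fun i : ι => fun j : Fin s =>
        MvPolynomial.aeval κ1 (Y (D i (y j))) - MvPolynomial.aeval κ1 (Y (D i r0)) *
          MvPolynomial.aeval κ1 (Y (E (y j))))) ∘ₗ P.subtype) := by
      rw [← LinearMap.ker_eq_bot, LinearMap.ker_eq_bot']
      rintro ⟨t, ht⟩ h0
      have h0' : ∀ j, ∑ i, t i * (MvPolynomial.aeval κ1 (Y (D i (y j))) -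
          MvPolynomial.aeval κ1 (Y (D i r0)) * MvPolynomial.aeval κ1 (Y (E (y j)))) = 0 := by
        intro j
        have h1 := congrFun h0 j
        rw [LinearMap.comp_apply, Fintype.linearCombination_apply, Finset.sum_apply] at h1
        exact h1
      obtain ⟨τ, hτ⟩ : ∃ τ : R →ₗ[ℂ] ℂ, ∀ h, τ h = ∑ i, t i * (MvPolynomial.aeval κ1 (Y (D i h)) -
          MvPolynomial.aeval κ1 (Y (D i r0)) * MvPolynomial.aeval κ1 (Y (E h))) := by
        refine ⟨∑ i, t i • (((MvPolynomial.aeval κ1).toLinearMap ∘ₗ Y.toLinearMap ∘ₗ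
          (D i).toLinearMap) - MvPolynomial.aeval κ1 (Y (D i r0)) •
          ((MvPolynomial.aeval κ1).toLinearMap ∘ₗ Y.toLinearMap ∘ₗ E.toLinearMap)), fun h => ?_⟩
        rw [LinearMap.sum_apply]
        rfl
      have hτmul : ∀ x y, τ (x * y) = MvPolynomial.aeval κ1 (Y x) * τ y +
          MvPolynomial.aeval κ1 (Y y) * τ x := by
        intro x y
        rw [hτ, hτ, hτ, Finset.mul_sum, Finset.mul_sum, ← Finset.sum_add_distrib]
        refine Finset.sum_congr rfl fun i _ => ?_
        rw [Derivation.leibniz, Derivation.leibniz]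
        simp only [smul_eq_mul, map_add, map_mul]
        ring
      have hτtop : ∀ (d : ℕ), ∀ h ∈ 𝒜 (d, d • σ), τ h = 0 := by
        intro d h hh
        have h1 := ht κ1 d h hh
        have h2 : MvPolynomial.aeval κ1 (Y (E h)) = (d : ℂ) * q h := by
          rw [zf d _ h hh, hB.zero d h hh, MvPolynomial.aeval_C]
          rfl
        rw [hτ, h2]
        simp only [mul_sub, Finset.sum_sub_distrib]
        rw [h1, Finset.mul_sum, ← Finset.sum_sub_distrib]
        refine Finset.sum_eq_zero fun i _ => ?_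
        ring
      have hτ0 := BB_tangent hT hB hτmul hτtop hy (fun j => by rw [hτ, h0'])
      have hc : ∑ i, t i * MvPolynomial.aeval κ1 (Y (D i r0)) = 0 := by
        have h1 := hτ0 f
        rw [hτ, zf 1 μ f hH.hf, Nat.cast_one, one_mul] at h1
        simp only [DDat.zero, map_zero, zero_sub, mul_neg, Finset.sum_neg_distrib, neg_eq_zero,
          ← mul_assoc, ← Finset.sum_mul] at h1
        exact (mul_eq_zero.1 h1).resolve_right hκ1
      have ht0 : t = 0 := by
        funext j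
        have h1 := hτ0 (ℓ j)
        rw [hτ, zf 1 _ _ (DDat.hl j), Nat.cast_one, one_mul] at h1
        simp only [mul_sub, Finset.sum_sub_distrib, ← mul_assoc, ← Finset.sum_mul] at h1
        rw [hc, zero_mul, sub_zero, Finset.sum_eq_single j] at h1
        · rw [DDat.dual, if_pos rfl] at h1
          exact (mul_eq_zero.1 h1).resolve_right hκ1
        · intro i _ hij
          rw [DDat.dual, if_neg hij, map_zero, map_zero, mul_zero]
        · intro h
          exact absurd (Finset.mem_univ _) h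
      exact Subtype.ext ht0
    have h1 := LinearMap.finrank_le_finrank_of_injective hinj
    rwa [Module.finrank_fin_fun] at h1
  -- the pairing
  choose c hc using fun i => homog_one (hom_one DDat hB i hr0)
  have hcv : ∀ (κ : Fin s → ℂ) i, MvPolynomial.aeval κ (Y (D i r0)) = ∑ j, κ j * c i j := by
    intro κ i
    rw [hc i, map_sum]
    refine Finset.sum_congr rfl fun j _ => ?_
    rw [map_smul, MvPolynomial.aeval_X, smul_eq_mul, mul_comm]
  obtain ⟨Φ, hΦ⟩ : ∃ Φ : (Fin s → ℂ) →ₗ[ℂ] Module.Dual ℂ P, ∀ κ (t : P),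
      Φ κ t = ∑ i, t.1 i * MvPolynomial.aeval κ (Y (D i r0)) := by
    refine ⟨Fintype.linearCombination ℂ (fun j : Fin s =>
      ∑ i, c i j • (LinearMap.proj i ∘ₗ P.subtype)), fun κ t => ?_⟩
    rw [Fintype.linearCombination_apply, LinearMap.sum_apply]
    simp only [hcv, Finset.mul_sum]
    rw [Finset.sum_comm]
    refine Finset.sum_congr rfl fun j _ => ?_
    rw [LinearMap.smul_apply, LinearMap.sum_apply, smul_eq_mul, Finset.mul_sum]
    refine Finset.sum_congr rfl fun i _ => ?_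
    change κ j * (c i j * t.1 i) = _
    ring
  have hval : ∀ κ κ' : Fin s → ℂ, Φ κ ⟨_, hPmem κ'⟩ = MvPolynomial.aeval κ' (der κ (Y f)) := by
    intro κ κ'
    rw [hΦ, ← key0 κ, map_sum]
    refine Finset.sum_congr rfl fun i _ => ?_
    rw [map_smul, smul_eq_mul, mul_comm]
  have hΦinj : Function.Injective Φ := by
    rw [← LinearMap.ker_eq_bot, LinearMap.ker_eq_bot']
    intro κ h0
    by_contra hne
    apply hder κ hne
    refine poly_ext fun κ' => ?_
    rw [← hval, h0, map_zero]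
    rfl
  have hΦsurj : Function.Surjective Φ := by
    have h1 := LinearMap.finrank_le_finrank_of_injective hΦinj
    rw [Module.finrank_fin_fun, Subspace.dual_finrank_eq] at h1
    refine (LinearMap.injective_iff_surjective_of_finrank_eq_finrank ?_).1 hΦinj
    rw [Module.finrank_fin_fun, Subspace.dual_finrank_eq]
    exact le_antisymm h1 hdim
  obtain ⟨κ, hκ⟩ := hΦsurj (∑ i, t' i • (LinearMap.proj i ∘ₗ P.subtype))
  refine ⟨κ, poly_ext fun κ' => ?_⟩
  rw [← hval, hκ, LinearMap.sum_apply, ht', map_sum, map_sum]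
  refine Finset.sum_congr rfl fun i _ => ?_
  rw [map_smul, map_smul]
  rfl

end Vale.Agent.P280.H939
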