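import Vale.Agent.P280.H939.E3b
import Vale.Agent.P280.H812.X3

/-!
# P280 (X3), row D, part 1: the chart at a source with one weight
-/

namespace Vale.Agent.P280.H939

open DirectSum Vale.Agent.P280.T Vale.Agent.P280.H127

theorem surj_of_separating {P V : Type*} [AddCommGroup P] [Module ℂ P] [FiniteDimensional ℂ P]
    [AddCommGroup V] [Module ℂ V] (B : V →ₗ[ℂ] Module.Dual ℂ P)
    (h : ∀ x : P, (∀ v, B v x = 0) → x = 0) : Function.Surjective B := by
  rw [← LinearMap.range_eq_top]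
  have h1 : (LinearMap.range B).dualCoannihilator = ⊥ := by
    rw [eq_bot_iff]
    intro x hx
    rw [Submodule.mem_dualCoannihilator] at hx
    exact h x (fun v => hx (B v) ⟨v, rfl⟩)
  have h2 := Subspace.dualCoannihilator_dualAnnihilator_eq (W := LinearMap.range B)
  rw [h1, Submodule.dualAnnihilator_bot] at h2
  exact h2.symm

theorem homog_one {σ : Type*} [Fintype σ] {P : MvPolynomial σ ℂ} (hP : P.IsHomogeneous 1) :
    ∃ c : σ → ℂ, P = ∑ i, c i • MvPolynomial.X i := by
  have h1 : P ∈ MvPolynomial.homogeneousSubmodule σ ℂ 1 := hP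
  rw [MvPolynomial.homogeneousSubmodule_one_eq_span_X, Submodule.mem_span_range_iff_exists_fun]
    at h1
  obtain ⟨c, hc⟩ := h1
  exact ⟨c, hc.symm⟩

theorem homog_of_weighted {σ : Type*} [Fintype σ] {χ : σ → ℤ} {a : ℤ} (ha : 0 < a)
    (hχ : ∀ i, χ i = a) {P : MvPolynomial σ ℂ} (hP : MvPolynomial.IsWeightedHomogeneous χ P a) :
    P.IsHomogeneous 1 := by
  intro m hm
  have h1 := hP hm
  rw [Finsupp.weight_apply, Finsupp.sum_fintype m (fun i c => c • χ i)
    (fun i => zero_smul _ _)] at h1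
  rw [Finsupp.weight_apply, Finsupp.sum_fintype m (fun i c => c • (1 : σ → ℕ) i)
    (fun i => zero_smul _ _)]
  have h2 : ((∑ i, m i : ℕ) : ℤ) * a = a := by
    rw [Nat.cast_sum, Finset.sum_mul]
    rw [← h1]
    refine Finset.sum_congr rfl fun i _ => ?_
    rw [hχ i, nsmul_eq_mul, h1]
  have h3 : ((∑ i, m i : ℕ) : ℤ) = 1 := by
    have h4 : ((∑ i, m i : ℕ) : ℤ) * a = 1 * a := by rw [h2, one_mul]
    exact mul_right_cancel₀ ha.ne' h4
  have h5 : ∑ i, m i = 1 := by exact_mod_cast h3
  rw [← h5]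
  refine Finset.sum_congr rfl fun i _ => ?_
  rw [Pi.one_apply, smul_eq_mul, mul_one]

section
variable {R : Type} [CommRing R] [Algebra ℂ R] {𝒜 : ℕ × ℤ → Submodule ℂ R}

theorem tangent_gen {p : R →ₐ[ℂ] ℂ} (hgen : Algebra.adjoin ℂ {h : R | ∃ m : ℤ, h ∈ 𝒜 (1, m)} = ⊤)
    {v : R →ₗ[ℂ] ℂ} (hv : IsTangent p v) (h0 : ∀ m, ∀ h ∈ 𝒜 (1, m), v h = 0) (h : R) :
    v h = 0 := by
  have hv1 : v 1 = 0 := by
    have := hv 1 1
    rw [mul_one, map_one p, one_mul] at this
    exact left_eq_add.mp this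
  have hmem : h ∈ Algebra.adjoin ℂ {h : R | ∃ m : ℤ, h ∈ 𝒜 (1, m)} := by
    rw [hgen]
    exact Algebra.mem_top
  induction hmem using Algebra.adjoin_induction with
  | mem x hx => exact h0 _ x hx.choose_spec
  | algebraMap c => rw [Algebra.algebraMap_eq_smul_one, map_smul, hv1, smul_zero]
  | add x y _ _ hx hy => rw [map_add, hx, hy, add_zero]
  | mul x y _ _ hx hy => rw [hv, hx, hy, mul_zero, mul_zero, add_zero]

variable [GradedAlgebra 𝒜] {p : R →ₐ[ℂ] ℂ} {μ a : ℤ} {f : R}

/-- fields of weight `-a` and dual elements of degree one -/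
structure DD (𝒜 : ℕ × ℤ → Submodule ℂ R) [GradedAlgebra 𝒜] (μ a : ℤ) (f : R) {ι : Type}
    [Fintype ι] [DecidableEq ι] (D : ι → Derivation ℂ R R) (ℓ : ι → R) : Prop where
  hD : ∀ i (d : ℕ) (m : ℤ), ∀ h ∈ 𝒜 (d, m), D i h ∈ 𝒜 (d, m - a)
  hl : ∀ i, ℓ i ∈ 𝒜 (1, μ + a)
  zero : ∀ i, D i f = 0
  dual : ∀ i j, D i (ℓ j) = if i = j then f else 0
  one : ∀ x ∈ 𝒜 (1, μ + a), ∃ t : ι → ℂ, x = ∑ i, t i • ℓ i
  der : ∀ (B : Type) [CommRing B] [IsDomain B] [Algebra ℂ B] (y : R →ₐ[ℂ] B), y f ≠ 0 →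
    ∀ δ : R →ₗ[ℂ] B, (∀ r s, δ (r * s) = y r * δ s + y s * δ r) →
    ∀ (d : ℕ) (m : ℤ), ∀ h ∈ 𝒜 (d, m), y f ^ 2 * δ h =
      ∑ i, (y f * δ (ℓ i) - y (ℓ i) * δ f) * y (D i h) + y f * δ f * ((d : ℂ) • y h)

theorem exists_DD (hH : H812.Hom 𝒜 p μ a f) : ∃ (ι : Type) (_ : Fintype ι) (_ : DecidableEq ι)
    (D : ι → Derivation ℂ R R) (ℓ : ι → R), DD 𝒜 μ a f D ℓ := by
  classical
  have hX := hH.man
  have hdom := hX.domain
  have ha := hH.pos
  obtain ⟨f', n, u, χ, C⟩ := exists_cdata hX hH.src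
  have hff : f = f' := by
    have h1 := C.eq_smul (d := 1) (m := μ) (by rw [one_smul, sub_self, map_zero]) hH.hf
    rwa [hH.pf, one_smul, pow_one] at h1
  subst hff
  let K := FractionRing R
  have hK : Function.Injective (algebraMap R K) := IsFractionRing.injective R K
  have hF : algebraMap R K f ≠ 0 := fun h => C.f_ne (hK (by rw [h, map_zero]))
  -- the weights
  have hχ : ∀ i : {i : Fin n // 0 < (AddMonoidHom.id ℤ) (χ i)}, χ i = a := by
    intro i
    have hi : 0 < χ i := i.2
    exact hH.one _ (tangentWeight_of_wt hX C.fix C.gens C.ht hi.ne')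
  -- fields
  have hfield : ∀ i : {i : Fin n // 0 < (AddMonoidHom.id ℤ) (χ i)}, ∃ D : Derivation ℂ R R,
      (∀ (d : ℕ) (m : ℤ), ∀ h ∈ 𝒜 (d, m), D h ∈ 𝒜 (d, m - a)) ∧
      ∀ j : {i : Fin n // 0 < (AddMonoidHom.id ℤ) (χ i)}, p (D (u j)) = if i = j then 1 else 0 := by
    intro i
    obtain ⟨v, hv, hw, hvu, -⟩ := exists_weight_vector hX (fix_of_isFixed C.fix) C.gens C.ht i.1
    obtain ⟨D, hD, hDv⟩ := (H812.theoremI_full hX hH.nef ha hH.src hH.src.1 C.fix).2 a rfl v hv
      (by
        intro d m h hh hne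
        have := hw d m h hh hne
        rwa [hχ i] at this)
    refine ⟨D, hD, fun j => ?_⟩
    rw [hDv, hvu]
    by_cases hij : i = j
    · rw [if_pos hij, if_pos (congrArg Subtype.val hij)]
    · rw [if_neg hij, if_neg (fun h => hij (Subtype.ext h))]
  choose D hD hDu using hfield
  have hDf : ∀ i, D i f = 0 := by
    intro i
    refine C.eq_zero (ψ := -a) ?_ (mem_coarse (hD i 1 μ f C.hf) ?_)
    · change -a < 0
      linarith
    · rw [rw'_apply, one_smul]
      ring
  have hDc : ∀ i (d : ℕ), ∀ h ∈ 𝒜 (d, d • μ + a), D i h = p (D i h) • f ^ d := by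
    intro i d h hh
    refine C.eq_smul ?_ (hD i d _ h hh)
    rw [add_sub_cancel_right, sub_self, map_zero]
  have pdiv : ∀ i x, (f - 1) ∣ x → p (D i x) = 0 := by
    rintro i x ⟨e, rfl⟩
    rw [Derivation.leibniz, map_sub, hDf, Derivation.map_one_eq_zero, sub_zero, smul_zero,
      add_zero, smul_eq_mul, map_mul, map_sub, hH.pf, map_one, sub_self, zero_mul]
  -- an element of weight `a` killed by all fields vanishes
  have hX1 : ∀ (d : ℕ), ∀ x ∈ 𝒜 (d, d • μ + a), (∀ i, p (D i x) = 0) → x = 0 := by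
    intro d x hx h0
    have hxc : x ∈ coarse 𝒜 (rw' μ) a :=
      mem_coarse hx (by rw [rw'_apply, add_sub_cancel_left])
    obtain ⟨P, hP, hP'⟩ := C.exists_poly hF hxc
    obtain ⟨c, hc⟩ := homog_one (homog_of_weighted ha hχ hP)
    have h1 : deh 𝒜 hF x = deh 𝒜 hF (∑ i : {i : Fin n // 0 < (AddMonoidHom.id ℤ) (χ i)},
        c i • u i) := by
      rw [← hP', hc, map_sum, map_sum]
      refine Finset.sum_congr rfl fun i _ => ?_
      rw [map_smul, map_smul, MvPolynomial.aeval_X]
      rfl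
    have h2 : x - ∑ i : {i : Fin n // 0 < (AddMonoidHom.id ℤ) (χ i)}, c i • u i ∈
        coarse 𝒜 (rw' μ) a := by
      refine Submodule.sub_mem _ hxc (Submodule.sum_mem _ fun i _ => Submodule.smul_mem _ _ ?_)
      have h3 := C.gens.hom i
      rwa [hχ i] at h3
    obtain ⟨N, b, hb, hb1, hb2⟩ := clear_deh C.hf hF h2
    have hb0 : b = 0 := by
      apply hK
      rw [← hb1, map_sub, h1, sub_self, mul_zero, map_zero]
    rw [hb0, zero_sub, dvd_neg] at hb2
    have hc0 : ∀ i, c i = 0 := by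
      intro i
      have h3 := pdiv i _ hb2
      rw [map_sub, map_sub, h0, zero_sub, neg_eq_zero, map_sum, map_sum] at h3
      rw [← h3, Finset.sum_eq_single i]
      · rw [Derivation.map_smul, map_smul, hDu, if_pos rfl, smul_eq_mul, mul_one]
      · intro j _ hj
        rw [Derivation.map_smul, map_smul, hDu, if_neg (Ne.symm hj), smul_zero]
      · intro h
        exact absurd (Finset.mem_univ _) h
    have h4 : deh 𝒜 hF x = 0 := by
      rw [← hP', hc]
      simp [hc0]
    rw [deh_of_mem hF hx] at h4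
    rcases mul_eq_zero.1 h4 with h5 | h5
    · exact hK (by rw [h5, map_zero])
    · exact absurd h5 (inv_ne_zero (pow_ne_zero _ hF))
  -- dual elements of degree one
  have hsurj := surj_of_separating
    (P := {i : Fin n // 0 < (AddMonoidHom.id ℤ) (χ i)} → ℂ) (V := 𝒜 (1, μ + a))
    (∑ i, ((p.toLinearMap ∘ₗ (D i).toLinearMap ∘ₗ (𝒜 (1, μ + a)).subtype).smulRight
      (LinearMap.proj i))) (by
    intro t ht
    have ht' : ∀ x ∈ 𝒜 (1, μ + a), ∑ i, t i * p (D i x) = 0 := by
      intro x hx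
      rw [← ht ⟨x, hx⟩, LinearMap.sum_apply, LinearMap.sum_apply]
      refine Finset.sum_congr rfl fun i _ => ?_
      rw [mul_comm]
      rfl
    have hv : IsTangent p (∑ i, t i • (p.toLinearMap ∘ₗ (D i).toLinearMap)) := by
      intro x y
      rw [LinearMap.sum_apply, LinearMap.sum_apply, LinearMap.sum_apply, Finset.mul_sum,
        Finset.mul_sum, ← Finset.sum_add_distrib]
      refine Finset.sum_congr rfl fun i _ => ?_
      change t i * p (D i (x * y)) = p x * (t i * p (D i y)) + p y * (t i * p (D i x))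
      rw [Derivation.leibniz, map_add, smul_eq_mul, smul_eq_mul, map_mul, map_mul]
      ring
    have hval : ∀ x, (∑ i, t i • (p.toLinearMap ∘ₗ (D i).toLinearMap)) x =
        ∑ i, t i * p (D i x) := by
      intro x
      rw [LinearMap.sum_apply]
      rfl
    have h0 := tangent_gen hX.gen hv (by
      intro m h hh
      rw [hval]
      by_cases hm : m = μ + a
      · subst hm
        exact ht' h hh
      · refine Finset.sum_eq_zero fun i _ => ?_
        by_contra hne
        apply hm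
        have h1 := C.fix 1 _ _ (hD i 1 m h hh) (fun h0 => hne (by rw [h0, mul_zero]))
        rw [one_smul] at h1
        linarith)
    funext j
    have h2 := h0 (u j)
    rw [hval, Finset.sum_eq_single j] at h2
    · rwa [hDu, if_pos rfl, mul_one] at h2
    · intro i _ hij
      rw [hDu, if_neg hij, mul_zero]
    · intro h
      exact absurd (Finset.mem_univ _) h)
  have hl : ∀ j : {i : Fin n // 0 < (AddMonoidHom.id ℤ) (χ i)}, ∃ x ∈ 𝒜 (1, μ + a),
      ∀ i, p (D i x) = if i = j then 1 else 0 := by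
    intro j
    obtain ⟨⟨x, hx⟩, hxj⟩ := hsurj (LinearMap.proj j)
    refine ⟨x, hx, fun i => ?_⟩
    have h1 := LinearMap.congr_fun hxj (Pi.single i 1)
    rw [LinearMap.sum_apply, LinearMap.sum_apply, Finset.sum_eq_single i] at h1
    · have h2 : p (D i x) * (Pi.single i (1 : ℂ) :
          {i : Fin n // 0 < (AddMonoidHom.id ℤ) (χ i)} → ℂ) i =
          (Pi.single i (1 : ℂ) : {i : Fin n // 0 < (AddMonoidHom.id ℤ) (χ i)} → ℂ) j := h1
      rw [Pi.single_eq_same, mul_one] at h2
      rw [h2, Pi.single_apply]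
      by_cases hij : i = j
      · rw [if_pos hij, if_pos hij.symm]
      · rw [if_neg hij, if_neg (Ne.symm hij)]
    · intro k _ hk
      change p (D k x) * (Pi.single i (1 : ℂ) :
          {i : Fin n // 0 < (AddMonoidHom.id ℤ) (χ i)} → ℂ) k = 0
      rw [Pi.single_eq_of_ne hk, mul_zero]
    · intro h
      exact absurd (Finset.mem_univ _) h
  choose ℓ hℓ hDℓ using hl
  have hdual : ∀ i j, D i (ℓ j) = if i = j then f else 0 := by
    intro i j
    have h1 := hDc i 1 (ℓ j) (by rw [one_smul]; exact hℓ j)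
    rw [h1, hDℓ, pow_one]
    by_cases hij : i = j
    · rw [if_pos hij, if_pos hij, one_smul]
    · rw [if_neg hij, if_neg hij, zero_smul]
  -- elements of weight `a`
  have hB1 : ∀ (N : ℕ), ∀ b ∈ 𝒜 (N, N • μ + a), f * b = f ^ N * ∑ j, p (D j b) • ℓ j := by
    intro N b hb
    rw [← sub_eq_zero]
    refine hX1 (N + 1) _ ?_ ?_
    · have e1 : f * b ∈ 𝒜 (N + 1, (N + 1) • μ + a) := by
        have h := SetLike.mul_mem_graded C.hf hb
        have e : ((1, μ) : ℕ × ℤ) + (N, N • μ + a) = (N + 1, (N + 1) • μ + a) := by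
          rw [Prod.mk_add_mk, Prod.mk.injEq]
          exact ⟨add_comm _ _, by rw [add_smul, one_smul]; ring⟩
        rwa [e] at h
      have e2 : f ^ N * ∑ j, p (D j b) • ℓ j ∈ 𝒜 (N + 1, (N + 1) • μ + a) := by
        have h := SetLike.mul_mem_graded (pow_fM C.hf N)
          (Submodule.sum_mem (𝒜 (1, μ + a)) fun j (_ : j ∈ Finset.univ) =>
            Submodule.smul_mem _ (p (D j b)) (hℓ j))
        have e : ((N, N • μ) : ℕ × ℤ) + (1, μ + a) = (N + 1, (N + 1) • μ + a) := by
          rw [Prod.mk_add_mk, Prod.mk.injEq]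
          exact ⟨rfl, by rw [add_smul, one_smul]; ring⟩
        rwa [e] at h
      exact Submodule.sub_mem _ e1 e2
    · intro i
      have h1 : D i (∑ j, p (D j b) • ℓ j) = p (D i b) • f := by
        rw [map_sum, Finset.sum_eq_single i]
        · rw [Derivation.map_smul, hdual, if_pos rfl]
        · intro j _ hj
          rw [Derivation.map_smul, hdual, if_neg (Ne.symm hj), smul_zero]
        · intro h
          exact absurd (Finset.mem_univ _) h
      rw [map_sub, Derivation.leibniz, Derivation.leibniz, Derivation.leibniz_pow, hDf, h1,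
        smul_zero, smul_zero, smul_zero, smul_zero, add_zero, add_zero, smul_eq_mul, smul_eq_mul,
        map_sub, map_mul, map_mul, map_pow, map_smul, hH.pf, one_pow, one_mul, one_mul,
        smul_eq_mul, mul_one, sub_self]
  refine ⟨_, inferInstance, inferInstance, D, ℓ, hD, hℓ, hDf, hdual, ?_, ?_⟩
  · intro x hx
    refine ⟨fun j => p (D j x), ?_⟩
    have h1 := hB1 1 x (by rwa [one_smul])
    rw [pow_one] at h1
    exact mul_left_cancel₀ C.f_ne h1
  · intro B _ _ _ y hy δ hδ
    obtain ⟨E, hE⟩ := H587.exists_euler 𝒜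
    have δ1 : δ 1 = 0 := by
      have := hδ 1 1
      rw [mul_one, map_one y, one_mul] at this
      exact left_eq_add.mp this
    obtain ⟨S, hS⟩ : ∃ S : R → B,
        ∀ r, S r = ∑ i, (y f * δ (ℓ i) - y (ℓ i) * δ f) * y (D i r) := ⟨_, fun _ => rfl⟩
    have hSadd : ∀ r s, S (r + s) = S r + S s := by
      intro r s
      rw [hS, hS, hS, ← Finset.sum_add_distrib]
      refine Finset.sum_congr rfl fun i _ => ?_
      rw [map_add, map_add, mul_add]
    have hSmul : ∀ r s, S (r * s) = y r * S s + y s * S r := by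
      intro r s
      rw [hS, hS, hS, Finset.mul_sum, Finset.mul_sum, ← Finset.sum_add_distrib]
      refine Finset.sum_congr rfl fun i _ => ?_
      rw [Derivation.leibniz, map_add, smul_eq_mul, smul_eq_mul, map_mul, map_mul]
      ring
    have hSf : S f = 0 := by
      rw [hS]
      refine Finset.sum_eq_zero fun i _ => ?_
      rw [hDf, map_zero, mul_zero]
    have hSl : ∀ j, S (ℓ j) = (y f * δ (ℓ j) - y (ℓ j) * δ f) * y f := by
      intro j
      rw [hS, Finset.sum_eq_single j]
      · rw [hdual, if_pos rfl]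
      · intro i _ hij
        rw [hdual, if_neg hij, map_zero, mul_zero]
      · intro h
        exact absurd (Finset.mem_univ _) h
    have hSc : ∀ c : ℂ, S (algebraMap ℂ R c) = 0 := by
      intro c
      rw [hS]
      refine Finset.sum_eq_zero fun i _ => ?_
      rw [Derivation.map_algebraMap, map_zero, mul_zero]
    obtain ⟨Δ, hΔ⟩ : ∃ Δ : R → B, ∀ r, Δ r = y f ^ 2 * δ r - (S r + y f * δ f * y (E r)) :=
      ⟨_, fun _ => rfl⟩
    have hΔadd : ∀ r s, Δ (r + s) = Δ r + Δ s := by
      intro r s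
      rw [hΔ, hΔ, hΔ, hSadd, map_add, map_add, map_add]
      ring
    have hΔmul : ∀ r s, Δ (r * s) = y r * Δ s + y s * Δ r := by
      intro r s
      rw [hΔ, hΔ, hΔ, hSmul, hδ, Derivation.leibniz, map_add, smul_eq_mul, smul_eq_mul, map_mul,
        map_mul]
      ring
    have hΔc : ∀ c : ℂ, Δ (algebraMap ℂ R c) = 0 := by
      intro c
      rw [hΔ, hSc, Derivation.map_algebraMap, Algebra.algebraMap_eq_smul_one, map_smul, δ1,
        smul_zero, mul_zero, map_zero, mul_zero, add_zero, sub_zero]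
    have hΔf : Δ f = 0 := by
      rw [hΔ, hSf, hE 1 μ f C.hf, Nat.cast_one, one_smul]
      ring
    have hΔl : ∀ j, Δ (ℓ j) = 0 := by
      intro j
      rw [hΔ, hSl, hE 1 _ _ (hℓ j), Nat.cast_one, one_smul]
      ring
    have hΔsum : ∀ t : {i : Fin n // 0 < (AddMonoidHom.id ℤ) (χ i)} → ℂ,
        Δ (∑ j, t j • ℓ j) = 0 := by
      intro t
      refine Finset.sum_induction _ (fun x => Δ x = 0) (fun a b h1 h2 => ?_) ?_ fun j _ => ?_
      · rw [hΔadd, h1, h2, add_zero]
      · have := hΔc 0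
        rwa [map_zero] at this
      · rw [Algebra.smul_def, hΔmul, hΔl, hΔc, mul_zero, mul_zero, add_zero]
    have hΔpow : ∀ N : ℕ, Δ (f ^ N) = 0 := by
      intro N
      induction N with
      | zero =>
        have := hΔc 1
        rw [pow_zero]
        rwa [map_one] at this
      | succ N ih => rw [pow_succ, hΔmul, hΔf, ih, mul_zero, mul_zero, add_zero]
    have hall : ∀ h, Δ h = 0 := by
      intro h
      obtain ⟨J, hJ⟩ := C.exists_jj hK hF
      obtain ⟨N, hN⟩ := C.chart_ind' hK hF (P := fun r _ => Δ r = 0) hΔc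
        (fun r s _ _ h1 h2 => by rw [hΔadd, h1, h2, add_zero])
        (fun r s _ _ h1 h2 => by rw [hΔmul, h1, h2, mul_zero, mul_zero, add_zero])
        hΔf (fun r _ h1 => by rw [hΔmul, hΔf, h1, mul_zero, mul_zero, add_zero])
        (fun i N b hb _ => by
          rw [hχ i] at hb
          have h1 := congrArg Δ (hB1 N b hb)
          rw [hΔmul, hΔmul, hΔf, hΔpow, hΔsum, mul_zero, mul_zero, mul_zero, add_zero,
            add_zero] at h1
          exact (mul_eq_zero.1 h1).resolve_left hy) (hJ h)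
      rw [hΔmul, hΔpow, mul_zero, add_zero] at hN
      refine (mul_eq_zero.1 hN).resolve_left ?_
      rw [map_pow]
      exact pow_ne_zero _ hy
    intro d m h hh
    have h1 := hall h
    rw [hΔ, sub_eq_zero, hS, hE d m h hh, map_smul] at h1
    exact h1

end

end Vale.Agent.P280.H939
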