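import Vale.Agent.P280.H939.D1

/-!
# P280 (X3), row D, part 2: the derivatives of the equation of the divisor at the sink
-/

namespace Vale.Agent.P280.H939

open DirectSum Vale.Agent.P280.T Vale.Agent.P280.H127 Vale.Agent.P280.H812

section der
variable {s : ℕ}

theorem der_mul (κ : Fin s → ℂ) (P Q : MvPolynomial (Fin s) ℂ) :
    der κ (P * Q) = P * der κ Q + Q * der κ P := by
  unfold der
  rw [Finset.mul_sum, Finset.mul_sum, ← Finset.sum_add_distrib]
  refine Finset.sum_congr rfl fun i _ => ?_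
  rw [Derivation.leibniz, smul_eq_mul, smul_eq_mul, smul_add, mul_smul_comm, mul_smul_comm]

theorem der_add (κ : Fin s → ℂ) (P Q : MvPolynomial (Fin s) ℂ) :
    der κ (P + Q) = der κ P + der κ Q := by
  unfold der
  rw [← Finset.sum_add_distrib]
  refine Finset.sum_congr rfl fun i _ => ?_
  rw [map_add, smul_add]

theorem der_smul (κ : Fin s → ℂ) (c : ℂ) (P : MvPolynomial (Fin s) ℂ) :
    der κ (c • P) = c • der κ P := by
  unfold der
  rw [Finset.smul_sum]
  refine Finset.sum_congr rfl fun i _ => ?_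
  rw [Derivation.map_smul, smul_comm]

theorem der_zero (κ : Fin s → ℂ) : der κ (0 : MvPolynomial (Fin s) ℂ) = 0 := by
  have h := der_smul κ 0 0
  rwa [zero_smul, zero_smul] at h

theorem der_C (κ : Fin s → ℂ) (c : ℂ) : der κ (MvPolynomial.C c) = 0 := by
  unfold der
  refine Finset.sum_eq_zero fun i _ => ?_
  rw [MvPolynomial.derivation_C, smul_zero]

theorem der_sum (κ : Fin s → ℂ) {ι : Type*} (S : Finset ι) (P : ι → MvPolynomial (Fin s) ℂ) :
    der κ (∑ i ∈ S, P i) = ∑ i ∈ S, der κ (P i) := by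
  classical
  induction S using Finset.induction_on with
  | empty => rw [Finset.sum_empty, Finset.sum_empty, der_zero]
  | insert i S hi ih => rw [Finset.sum_insert hi, Finset.sum_insert hi, der_add, ih]

theorem der_X (κ : Fin s → ℂ) (j : Fin s) : der κ (MvPolynomial.X j) = MvPolynomial.C (κ j) := by
  unfold der
  rw [Finset.sum_eq_single j]
  · rw [MvPolynomial.pderiv_X_self, MvPolynomial.smul_eq_C_mul, mul_one]
  · intro i _ hi
    rw [MvPolynomial.pderiv_X_of_ne (Ne.symm hi), smul_zero]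
  · intro h
    exact absurd (Finset.mem_univ _) h

/-- the derivative of a linear form -/
theorem der_lin (κ : Fin s → ℂ) {P : MvPolynomial (Fin s) ℂ} (hP : P.IsHomogeneous 1) :
    der κ P = MvPolynomial.C (MvPolynomial.aeval κ P) := by
  obtain ⟨c, rfl⟩ := homog_one hP
  rw [der_sum, map_sum, map_sum]
  refine Finset.sum_congr rfl fun j _ => ?_
  rw [der_smul, der_X, map_smul, MvPolynomial.aeval_X, smul_eq_mul, map_mul,
    MvPolynomial.smul_eq_C_mul]

theorem poly_ext {P Q : MvPolynomial (Fin s) ℂ}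
    (h : ∀ κ : Fin s → ℂ, MvPolynomial.aeval κ P = MvPolynomial.aeval κ Q) : P = Q := by
  refine MvPolynomial.funext fun κ => ?_
  have h1 := h κ
  rw [MvPolynomial.aeval_eq_eval] at h1
  exact h1

/-- the derivative along a homomorphism, as a linear map -/
theorem exists_derY {R : Type} [CommRing R] [Algebra ℂ R] (Y : R →ₐ[ℂ] MvPolynomial (Fin s) ℂ)
    (κ : Fin s → ℂ) : ∃ δ : R →ₗ[ℂ] MvPolynomial (Fin s) ℂ, (∀ h, δ h = der κ (Y h)) :=
  ⟨{ toFun := fun h => der κ (Y h)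
     map_add' := fun x y => by rw [map_add, der_add]
     map_smul' := fun c x => by rw [map_smul, der_smul]; rfl }, fun _ => rfl⟩

end der

section
variable {R : Type} [CommRing R] [Algebra ℂ R] {𝒜 : ℕ × ℤ → Submodule ℂ R} [GradedAlgebra 𝒜]
variable {p : R →ₐ[ℂ] ℂ} {μ a : ℤ} {f : R}

/-- the derivation given by the weight -/
theorem exists_weightDer (𝒜 : ℕ × ℤ → Submodule ℂ R) [GradedAlgebra 𝒜] (μ : ℤ) :
    ∃ W : R →ₗ[ℂ] R, (∀ x y, W (x * y) = x * W y + y * W x) ∧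
      ∀ (d : ℕ) (m : ℤ), ∀ h ∈ 𝒜 (d, m), W h = ((m - d • μ : ℤ) : ℂ) • h := by
  obtain ⟨W, hW⟩ := H587.exists_linearMap 𝒜
    (fun i : ℕ × ℤ => ((i.2 - i.1 • μ : ℤ) : ℂ) • (LinearMap.id : R →ₗ[ℂ] R))
  have hW' : ∀ (d : ℕ) (m : ℤ), ∀ h ∈ 𝒜 (d, m), W h = ((m - d • μ : ℤ) : ℂ) • h :=
    fun d m h hh => hW (d, m) h hh
  refine ⟨W, fun x y => ?_, hW'⟩
  have key := H587.bilin_ext 𝒜 (F := (LinearMap.mul ℂ R).compr₂ W)
    (G := (LinearMap.mul ℂ R).compl₁₂ LinearMap.id W +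
      ((LinearMap.mul ℂ R).compl₁₂ LinearMap.id W).flip) ?_ x y
  · exact key
  · rintro ⟨d, m⟩ ⟨e, m'⟩ x hx y hy
    change W (x * y) = x * W y + y * W x
    have hxy : x * y ∈ 𝒜 (d + e, m + m') := SetLike.mul_mem_graded hx hy
    rw [hW' _ _ _ hxy, hW' _ _ _ hx, hW' _ _ _ hy, mul_smul_comm, mul_smul_comm, mul_comm y x,
      ← add_smul]
    congr 1
    rw [← Int.cast_add, Int.cast_inj, add_smul]
    ring

variable {ι : Type} [Fintype ι] [DecidableEq ι] {D : ι → Derivation ℂ R R} {ℓ : ι → R}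
variable {σ : ℤ} {q : R →ₐ[ℂ] ℂ} {s : ℕ} {Y : R →ₐ[ℂ] MvPolynomial (Fin s) ℂ}

theorem hom_one (DDat : DD 𝒜 μ a f D ℓ) (hB : BB 𝒜 a σ q Y) (i : ι) {d : ℕ} {h : R}
    (hh : h ∈ 𝒜 (d, d • σ)) : (Y (D i h)).IsHomogeneous 1 := by
  refine hB.hom d (d • σ - a) 1 _ (DDat.hD i d _ h hh) ?_
  rw [Nat.cast_one, one_mul]
  ring

/-- **(P4)** -/
theorem key_identity (DDat : DD 𝒜 μ a f D ℓ) (ha : 0 < a) (hf : f ∈ 𝒜 (1, μ))
    (hB : BB 𝒜 a σ q Y) (hY : Y f ≠ 0) (κ : Fin s → ℂ) {d : ℕ} {h : R} (hh : h ∈ 𝒜 (d, d • σ)) :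
    ∑ i, MvPolynomial.aeval κ (Y (D i h)) • Y (ℓ i) = ((d : ℂ) * q h) • der κ (Y f) := by
  obtain ⟨W, hW, hW'⟩ := exists_weightDer 𝒜 μ
  have ha' : (a : ℂ) ≠ 0 := by exact_mod_cast ha.ne'
  -- the first identity
  have e1 := DDat.der _ Y hY (Y.toLinearMap ∘ₗ W) (fun r s => by
    change Y (W (r * s)) = Y r * Y (W s) + Y s * Y (W r)
    rw [hW, map_add, map_mul, map_mul]) d _ h hh
  have w1 : (Y.toLinearMap ∘ₗ W) f = 0 := by
    change Y (W f) = 0
    rw [hW' 1 μ f hf, one_smul, sub_self, Int.cast_zero, zero_smul, map_zero]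
  have w2 : ∀ i, (Y.toLinearMap ∘ₗ W) (ℓ i) = MvPolynomial.C (a : ℂ) * Y (ℓ i) := by
    intro i
    change Y (W (ℓ i)) = _
    rw [hW' 1 _ _ (DDat.hl i), one_smul, add_sub_cancel_left, map_smul, MvPolynomial.smul_eq_C_mul]
  have w3 : (Y.toLinearMap ∘ₗ W) h = MvPolynomial.C (((d • σ - d • μ : ℤ) : ℂ) * q h) := by
    change Y (W h) = _
    rw [hW' d _ h hh, map_smul, hB.zero d h hh, MvPolynomial.smul_eq_C_mul, map_mul]
  rw [w1, w3] at e1
  simp only [w2, mul_zero, sub_zero, zero_mul, add_zero] at e1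
  -- the second identity
  obtain ⟨δ, hδ⟩ := exists_derY Y κ
  have e2 := DDat.der _ Y hY δ (fun r s => by rw [hδ, hδ, hδ, map_mul, der_mul]) d _ h hh
  have v3 : δ h = 0 := by rw [hδ, hB.zero d h hh, der_C]
  rw [v3] at e2
  simp only [hδ] at e2
  rw [hB.zero d h hh, mul_zero] at e2
  set g := Y f with hg
  set k := MvPolynomial.C (((d • σ - d • μ : ℤ) : ℂ) * q h) with hk
  have eA : g * k = MvPolynomial.C (a : ℂ) * ∑ i, Y (ℓ i) * Y (D i h) := by
    apply mul_left_cancel₀ hY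
    rw [← mul_assoc, ← pow_two, e1, Finset.mul_sum, Finset.mul_sum]
    refine Finset.sum_congr rfl fun i _ => ?_
    ring
  have eA' : der κ g * k = MvPolynomial.C (a : ℂ) * (∑ i, Y (ℓ i) * der κ (Y (D i h)) +
      ∑ i, der κ (Y (ℓ i)) * Y (D i h)) := by
    have h1 := congrArg (der κ) eA
    rw [der_mul, hk, der_C, mul_zero, zero_add, ← hk, mul_comm k, der_mul, der_C, mul_zero,
      add_zero, der_sum] at h1
    rw [h1, ← Finset.sum_add_distrib]
    apply congrArg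
    refine Finset.sum_congr rfl fun i _ => ?_
    rw [der_mul]
    ring
  have eB : g * ∑ i, der κ (Y (ℓ i)) * Y (D i h) - der κ g * ∑ i, Y (ℓ i) * Y (D i h) +
      g * der κ g * MvPolynomial.C ((d : ℂ) * q h) = 0 := by
    rw [map_mul, ← MvPolynomial.smul_eq_C_mul, Finset.mul_sum, Finset.mul_sum,
      ← Finset.sum_sub_distrib]
    have h1 : ∑ i, (g * (der κ (Y (ℓ i)) * Y (D i h)) - der κ g * (Y (ℓ i) * Y (D i h))) =
        ∑ i, (g * der κ (Y (ℓ i)) - Y (ℓ i) * der κ g) * Y (D i h) := by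
      refine Finset.sum_congr rfl fun i _ => ?_
      ring
    rw [h1]
    exact e2.symm
  have eC : ∑ i, Y (ℓ i) * der κ (Y (D i h)) = der κ g * MvPolynomial.C ((d : ℂ) * q h) := by
    have hCa : (MvPolynomial.C (a : ℂ) : MvPolynomial (Fin s) ℂ) ≠ 0 := by
      rw [Ne, MvPolynomial.C_eq_zero]
      exact ha'
    apply mul_left_cancel₀ hCa
    apply mul_left_cancel₀ hY
    linear_combination (-g) * eA' + der κ g * eA - MvPolynomial.C (a : ℂ) * eB
  rw [MvPolynomial.smul_eq_C_mul, mul_comm, ← eC]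
  refine Finset.sum_congr rfl fun i _ => ?_
  rw [der_lin κ (hom_one DDat hB i hh), MvPolynomial.smul_eq_C_mul, mul_comm]

end

end Vale.Agent.P280.H939
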