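import Vale.Agent.P280.H939.E6b
import Vale.Agent.P280.H939.EBase
import Vale.Agent.P280.H127.Transport
import Vale.Agent.P280.H127.Cover
import Vale.Agent.P280.H644.Div
import Vale.Agent.P280.H939.R3h

/-!
# P280 (B1), E7: the source line
-/

namespace Vale.Agent.P280.H939

open DirectSum Vale.Agent.P280.T Vale.Agent.P280.H127

variable {M : Type} [AddCommGroup M] [DecidableEq M]
variable {R : Type} [CommRing R] [Algebra ℂ R] {𝒜 : ℕ × M → Submodule ℂ R} [GradedAlgebra 𝒜]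
variable {l L : M →+ ℤ} {μ : M} {p : R →ₐ[ℂ] ℂ} {f : R} {n : ℕ} {u : Fin n → R} {χ : Fin n → M}

theorem line_low {ω : M} {f1 : R} {k : ℕ} {φ : R →ₐ[ℂ] MvPolynomial (Fin 2) ℂ}
    (D : LData 𝒜 l μ ω f f1 k φ) (d : ℕ) (m : ℤ) (h : R) (hh : h ∈ H587.co 𝒜 l (d, m))
    (hne : h ≠ 0) : d • l μ ≤ m := by
  by_contra hcon
  exact hne (low_zero D (not_le.1 hcon) hh)

theorem line_weight {a : ℤ} (ha : 0 < a)
    (C : CData 𝒜 L μ p f u χ) {ω : M} (h0 : l ω = 0)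
    {f1 : R} {k : ℕ} {φ : R →ₐ[ℂ] MvPolynomial (Fin 2) ℂ} (D : LData 𝒜 l μ ω f f1 k φ)
    (hla : ∀ i : {i : Fin n // 0 < L (χ i)}, l (χ i) ≤ a)
    {L' : M →+ ℤ} {q1 : R →ₐ[ℂ] ℂ} {n' : ℕ} {u' : Fin n' → R} {χ' : Fin n' → M}
    (C' : CData 𝒜 L' (μ + k • ω) q1 f1 u' χ')
    (hla1 : ∀ i : {i : Fin n' // 0 < L' (χ' i)}, l (χ' i) ≤ a)
    {q : R →ₐ[ℂ] ℂ} (hq : ¬ IsVertex 𝒜 q) (hq' : IsFixed (H587.co 𝒜 l) q (l μ)) {b : ℤ}
    (hb : TangentWeight (H587.co 𝒜 l) q (l μ) b) : b ≤ a := by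
  by_contra hcon
  rw [not_le] at hcon
  obtain ⟨v, hv, hvw, hne⟩ := hb
  obtain ⟨d, m, h, hh, hne⟩ := hne 0
  apply hne
  rw [zero_mul, zero_mul]
  rcases (cover D C.hf hq hq').1 with h1 | h1
  · exact C.tangent_eq_zero (ha.trans hcon) (fun i => (hla i).trans_lt hcon) h1 hv hvw h
  · refine C'.tangent_eq_zero (ha.trans hcon) (fun i => (hla1 i).trans_lt hcon) h1 hv ?_ h
    rwa [map_add, map_nsmul, h0, smul_zero, add_zero]

/-- **(E6)** the extension of tangent vectors of top weight on the line. -/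
theorem line_ext (hX : IsTorusManifold 𝒜) (hN : NefOnRationalCurves 𝒜) {a : ℤ} (ha : 0 < a)
    (C : CData 𝒜 L μ p f u χ) (i0 : {i : Fin n // 0 < L (χ i)}) (h0 : l (χ i0) = 0)
    (hpos : ∀ i : {i : Fin n // 0 < L (χ i)}, i ≠ i0 → 0 < l (χ i))
    {f1 : R} {k : ℕ} {φ : R →ₐ[ℂ] MvPolynomial (Fin 2) ℂ} (D : LData 𝒜 l μ (χ i0) f f1 k φ)
    {c0 : ℂ} (hc0 : c0 ≠ 0) (hu0 : evs (φ (u i0)) = Polynomial.C c0 * Polynomial.X)
    (hla : ∀ i : {i : Fin n // 0 < L (χ i)}, l (χ i) ≤ a)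
    {L' : M →+ ℤ} {q1 : R →ₐ[ℂ] ℂ} {n' : ℕ} {u' : Fin n' → R} {χ' : Fin n' → M}
    (C' : CData 𝒜 L' (μ + k • χ i0) q1 f1 u' χ') (i1 : {i : Fin n' // 0 < L' (χ' i)})
    (h1 : l (χ' i1) = 0) (hpos1 : ∀ i : {i : Fin n' // 0 < L' (χ' i)}, i ≠ i1 → 0 < l (χ' i))
    {c1 : ℂ} (hc1 : c1 ≠ 0) (hu1 : evt (φ (u' i1)) = Polynomial.C c1 * Polynomial.X)
    (hla1 : ∀ i : {i : Fin n' // 0 < L' (χ' i)}, l (χ' i) ≤ a)
    {q : R →ₐ[ℂ] ℂ} (hq : ¬ IsVertex 𝒜 q) (hq' : IsFixed (H587.co 𝒜 l) q (l μ))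
    {v : R →ₗ[ℂ] ℂ} (hv : IsTangent q v) (hvw : HasWeight (H587.co 𝒜 l) (l μ) a v) :
    ∃ D : Derivation ℂ R R,
      (∀ (d : ℕ) (k : ℤ), ∀ h ∈ H587.co 𝒜 l (d, k), D h ∈ H587.co 𝒜 l (d, k - a)) ∧
      ∀ h, q (D h) = v h := by
  have hdom := hX.domain
  have hX' := H587.isTorusManifold_co (l := l) hX
  have hN' := H587.nef_co (l := l) hN
  have hfc : f ∈ H587.co 𝒜 l (1, l μ) := H587.mem_co C.hf
  -- the bound at all fixed points
  have hbound : ∀ (q : R →ₐ[ℂ] ℂ) (ν : ℤ), ¬ IsVertex (H587.co 𝒜 l) q →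
      IsFixed (H587.co 𝒜 l) q ν → ∀ χ, TangentWeight (H587.co 𝒜 l) q ν χ → χ ≤ a := by
    intro q ν hq hq' χ hχ
    exact weight_le_of_low hX' hN' ha hfc C.f_ne (line_low D)
      (fun q hq hq' χ hχ => line_weight ha C h0 D hla C' hla1 (fun h => hq (H587.isVertex_co.2 h))
        hq' hχ) hq hq' hχ
  obtain ⟨-, s0, t0, hst, hqφ⟩ := cover D C.hf hq hq'
  -- the derivation along the line
  have hnv : ∀ r : Fin 2 → ℂ, r ≠ 0 → ¬ IsVertex 𝒜 ((MvPolynomial.aeval r).comp φ) := by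
    intro r hr hvert
    have e1 : MvPolynomial.aeval r (φ f) = 0 := hvert 1 μ one_pos f C.hf
    have e2 : MvPolynomial.aeval r (φ f1) = 0 := hvert 1 _ one_pos f1 C'.hf
    rw [D.phif, map_pow, MvPolynomial.aeval_X] at e1
    rw [D.phif1, map_pow, MvPolynomial.aeval_X] at e2
    have e1' := (pow_eq_zero_iff D.kpos.ne').1 e1
    have e2' := (pow_eq_zero_iff D.kpos.ne').1 e2
    apply hr
    funext i
    fin_cases i
    · exact e1'
    · exact e2'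
  have hr : (![s0, t0] : Fin 2 → ℂ) ≠ 0 := by
    intro h
    rcases hst with h2 | h2
    · exact h2 (congrFun h 0)
    · exact h2 (congrFun h 1)
  have hv' : IsTangent ((MvPolynomial.aeval ![s0, t0]).comp φ) v := by rwa [← hqφ]
  obtain ⟨δ0, hδ0, hδ0hom, hδ0v⟩ := hN k φ D.hom hnv _ hr v hv'
  obtain ⟨δ, hδ, hδhom, hδa, hδe⟩ := exists_delta_a D.zero δ0 hδ0 hδ0hom ha
  have hδv : ∀ h, MvPolynomial.aeval ![s0, t0] (δ h) = v h := by
    intro h
    have key : (MvPolynomial.aeval ![s0, t0]).toLinearMap ∘ₗ δ = v := by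
      apply linearMap_ext_graded 𝒜
      rintro ⟨d, m⟩ h hh
      change MvPolynomial.aeval ![s0, t0] (δ h) = v h
      by_cases hm : l (m - d • μ) = a
      · rw [hδe d m hm h hh, hδ0v]
      · rw [hδa d m hm h hh, map_zero]
        by_contra hne
        apply hm
        have h2 := hvw d (l m) h (H587.mem_co hh) (Ne.symm hne)
        rw [map_sub, map_nsmul, h2]
        ring
    exact LinearMap.congr_fun key h
  obtain ⟨N, D0, D1, hD, hφ0, hφ1, h01⟩ := exists_glue hX ha C i0 h0 hpos D hc0 hu0 hla C' i1 h1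
    hpos1 hc1 hu1 δ hδ hδhom hδa
  have hdiv := extension2 hX' ha hbound (fun m h hh hne => by
      have := line_low D 1 m h hh hne
      rwa [one_smul] at this) hfc C.f_ne
    (fun q hq hq' => (cover D C.hf (fun h => hq (H587.isVertex_co.2 h)) hq').1) N D0 D1 hD h01
  obtain ⟨E, hE⟩ := H644.exists_div_derivation (pow_ne_zero N C.f_ne) D0 hdiv
  refine ⟨E, ?_, ?_⟩
  · intro d m h hh
    have h2 := hD d m h hh
    rw [hE] at h2
    have e : ((d + N, m + N • l μ - a) : ℕ × ℤ) = (N, N • l μ) + (d, m - a) := by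
      rw [Prod.mk_add_mk, Prod.mk.injEq]
      exact ⟨add_comm _ _, by ring⟩
    rw [e] at h2
    exact mem_of_mul_mem' (pow_ne_zero N C.f_ne) (pow_co hfc N) h2
  · intro h
    have hqx : ∀ x, q x = MvPolynomial.aeval ![s0, t0] (φ x) := fun x => by rw [hqφ]; rfl
    rcases (cover D C.hf hq hq').1 with h2 | h2
    · have h3 : q (D0 h) = q f ^ N * v h := by
        rw [hqx, hφ0, map_mul, map_pow, hδv, ← hqx]
      rw [hE, map_mul, map_pow] at h3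
      exact mul_left_cancel₀ (pow_ne_zero N h2) h3
    · have h3 : q (D1 h) = q f1 ^ N * v h := by
        rw [hqx, hφ1, map_mul, map_pow, hδv, ← hqx]
      have h4 : f1 ^ N * E h = D1 h := by
        apply mul_left_cancel₀ (pow_ne_zero N C.f_ne)
        rw [← h01, hE]
        ring
      rw [← h4, map_mul, map_pow] at h3
      exact mul_left_cancel₀ (pow_ne_zero N h2) h3

end Vale.Agent.P280.H939
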